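import Vale.Agent.Helper22.PettyPlanar
import Vale.Agent.Helper16.PettyConst
import Vale.Agent.Helper16.PettyBall

/-!
P237 (Petty's projection-volume conjecture).  Write `R_n(K) = |Π K| / |K|^(n-1)` for the Petty
ratio and `c_n = κ_{n-1}^n κ_n^{2-n}` for its value on ellipsoids, the conjectured minimum.

Let `𝒞` be the smallest class of convex bodies (in all dimensions) that contains the planar
convex bodies, the segments and the Euclidean unit balls and is closed under Cartesian products
and invertible affine maps.  Then Petty's conjecture holds on `𝒞`, equality case included: every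
`K ∈ 𝒞` of dimension `n` has `R_n(K) ≥ c_n`, and for `n ≥ 3` equality holds if and only if `K`
is an ellipsoid.  The ingredients are the affine invariance of `R_n`, the value `R_n = c_n` on
balls, the product formula `R_{a+b}(M × N) = R_a(M) R_b(N)` and the strict submultiplicativity
`c_{a+b} < c_a c_b` (`a + b ≥ 3`) of the constants.

Here `Π K` is the convex set with support function `u ↦ |K + [0, u]| - |K|`.
-/

namespace Vale.Agent.Results.P237.AffineProductClass

open MeasureTheory Vale.Agent.Helper22 Vale.Agent.Helper16.PettyConst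
  Vale.Agent.Helper16.PettyBall Vale.Agent.Helper16.PettyAffine

/-- Ellipsoids: the images `a + T B` of the Euclidean unit ball `B` of `ℝ^ι` under invertible
affine maps. -/
def IsEllipsoid {ι : Type} [Fintype ι] (K : Set (ι → ℝ)) : Prop :=
  ∃ (T : (ι → ℝ) ≃ₗ[ℝ] (ι → ℝ)) (a : ι → ℝ), K = (fun x => T x + a) '' eball ι

/-- The smallest class of pairs (finite index type `ι`, subset of `ι → ℝ`) that contains every
planar convex body (compact, convex, nonempty interior; index type `Fin 2`), every segment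
`[0, h]` with `h > 0` (index type `Unit`) and every Euclidean unit ball (any nonempty finite index
type), and is closed under Cartesian products `M × N ⊆ ℝ^(ι ⊕ κ)` and under invertible affine
maps `x ↦ T x + a` from `ℝ^ι` to `ℝ^κ` (`T` a linear equivalence; this includes renaming the
coordinates along a bijection of index types). -/
inductive InClass : (ι : Type) → [Fintype ι] → Set (ι → ℝ) → Prop
  | planar (M : Set (Fin 2 → ℝ)) (hc : IsCompact M) (hv : Convex ℝ M)
      (hi : (interior M).Nonempty) : InClass (Fin 2) M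
  | segment (h : ℝ) (hh : 0 < h) : InClass Unit (unitSeg h)
  | ball (ι : Type) [Fintype ι] [Nonempty ι] : InClass ι (eball ι)
  | prod {ι κ : Type} [Fintype ι] [Fintype κ] (M : Set (ι → ℝ)) (N : Set (κ → ℝ))
      (hM : InClass ι M) (hN : InClass κ N) : InClass (ι ⊕ κ) (prodSet M N)
  | affine {ι κ : Type} [Fintype ι] [Fintype κ] (T : (ι → ℝ) ≃ₗ[ℝ] (κ → ℝ)) (a : κ → ℝ)
      (K : Set (ι → ℝ)) (hK : InClass ι K) : InClass κ ((fun x => T x + a) '' K)

lemma convex_prodSet {ι κ : Type} {M : Set (ι → ℝ)} {N : Set (κ → ℝ)}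
    (hM : Convex ℝ M) (hN : Convex ℝ N) : Convex ℝ (prodSet M N) := by
  intro f hf g hg a b ha hb hab
  exact ⟨hM hf.1 hg.1 ha hb hab, hN hf.2 hg.2 ha hb hab⟩

/-- Closure of Petty's inequality under products. -/
lemma closure_prod {ι κ : Type} [Fintype ι] [Fintype κ] [Nonempty ι] [Nonempty κ]
    {M : Set (ι → ℝ)} {N : Set (κ → ℝ)}
    (hMc : IsCompact M) (hM : Convex ℝ M) (hvM : 0 < vol M)
    (hNc : IsCompact N) (hN : Convex ℝ N) (hvN : 0 < vol N)
    (h1 : pettyConst (Fintype.card ι) ≤ pettyRatio M)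
    (h2 : pettyConst (Fintype.card κ) ≤ pettyRatio N) :
    pettyConst (Fintype.card ι + Fintype.card κ) ≤ pettyRatio (prodSet M N) ∧
    (3 ≤ Fintype.card ι + Fintype.card κ →
      pettyConst (Fintype.card ι + Fintype.card κ) < pettyRatio (prodSet M N)) := by
  have ha : 1 ≤ Fintype.card ι := Fintype.card_pos
  have hb : 1 ≤ Fintype.card κ := Fintype.card_pos
  obtain ⟨a', ha'⟩ : ∃ a', Fintype.card ι = a' + 1 := ⟨Fintype.card ι - 1, by omega⟩
  obtain ⟨b', hb'⟩ : ∃ b', Fintype.card κ = b' + 1 := ⟨Fintype.card κ - 1, by omega⟩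
  have pa : 0 < pettyConst (Fintype.card ι) := by rw [ha']; exact pettyConst_pos a'
  have pb : 0 < pettyConst (Fintype.card κ) := by rw [hb']; exact pettyConst_pos b'
  have hmul : pettyConst (Fintype.card ι) * pettyConst (Fintype.card κ)
      ≤ pettyRatio M * pettyRatio N :=
    mul_le_mul h1 h2 pb.le (pa.le.trans h1)
  rw [pettyRatio_prodSet hMc hM hNc hN hvM hvN]
  exact ⟨(pettyConst_add_le ha hb).trans hmul,
    fun h3 => lt_of_lt_of_le (pettyConst_add_lt ha hb h3) hmul⟩

lemma card_eq_of_linearEquiv {ι κ : Type} [Fintype ι] [Fintype κ]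
    (T : (ι → ℝ) ≃ₗ[ℝ] (κ → ℝ)) : Fintype.card ι = Fintype.card κ := by
  have h := LinearEquiv.finrank_eq T
  rwa [Module.finrank_fintype_fun_eq_card, Module.finrank_fintype_fun_eq_card] at h

/-- An invertible affine map between coordinate spaces is a same-space invertible linear map,
followed by a renaming of the coordinates and a translation. -/
lemma image_affine_eq {ι κ : Type} [Fintype ι] [Fintype κ] (T : (ι → ℝ) ≃ₗ[ℝ] (κ → ℝ))
    (a : κ → ℝ) (e : ι ≃ κ) (K : Set (ι → ℝ)) :
    (fun x => T x + a) '' K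
      = (fun y => y + a) '' (reidx e '' ((T.trans (reidx e).symm) '' K)) := by
  rw [Set.image_image, Set.image_image]
  refine Set.image_congr fun x _ => ?_
  show T x + a = reidx e ((reidx e).symm (T x)) + a
  rw [LinearEquiv.apply_symm_apply]

lemma pettyRatio_affine {ι κ : Type} [Fintype ι] [Fintype κ] [Nonempty ι]
    (T : (ι → ℝ) ≃ₗ[ℝ] (κ → ℝ)) (a : κ → ℝ) (K : Set (ι → ℝ)) :
    pettyRatio ((fun x => T x + a) '' K) = pettyRatio K := by
  rw [image_affine_eq T a (Fintype.equivOfCardEq (card_eq_of_linearEquiv T)),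
    pettyRatio_translate, pettyRatio_reidx, pettyRatio_image]

lemma vol_affine_pos {ι κ : Type} [Fintype ι] [Fintype κ] (T : (ι → ℝ) ≃ₗ[ℝ] (κ → ℝ))
    (a : κ → ℝ) {K : Set (ι → ℝ)} (hK : 0 < vol K) :
    0 < vol ((fun x => T x + a) '' K) := by
  rw [image_affine_eq T a (Fintype.equivOfCardEq (card_eq_of_linearEquiv T)),
    vol_translate, vol_reidx, vol_image]
  exact mul_pos (abs_pos.mpr (det_ne_zero _)) hK

lemma isCompact_affine {ι κ : Type} [Fintype ι] [Fintype κ] (T : (ι → ℝ) ≃ₗ[ℝ] (κ → ℝ))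
    (a : κ → ℝ) {K : Set (ι → ℝ)} (hK : IsCompact K) :
    IsCompact ((fun x => T x + a) '' K) := by
  have hT : Continuous (T : (ι → ℝ) →ₗ[ℝ] (κ → ℝ)) := LinearMap.continuous_of_finiteDimensional _
  have hc : Continuous fun x : ι → ℝ => T x + a := by
    have h2 : Continuous fun x : ι → ℝ => (T : (ι → ℝ) →ₗ[ℝ] (κ → ℝ)) x + a :=
      hT.add continuous_const
    exact h2
  exact hK.image hc

lemma convex_affine {ι κ : Type} (T : (ι → ℝ) ≃ₗ[ℝ] (κ → ℝ))
    (a : κ → ℝ) {K : Set (ι → ℝ)} (hK : Convex ℝ K) :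
    Convex ℝ ((fun x => T x + a) '' K) := by
  rintro _ ⟨x, hx, rfl⟩ _ ⟨y, hy, rfl⟩ s t hs ht hst
  refine ⟨s • x + t • y, hK hx hy hs ht hst, ?_⟩
  show T (s • x + t • y) + a = s • (T x + a) + t • (T y + a)
  rw [map_add, map_smul, map_smul, smul_add, smul_add, add_add_add_comm, ← add_smul, hst,
    one_smul]

lemma isEllipsoid_affine {ι κ : Type} [Fintype ι] [Fintype κ] (T : (ι → ℝ) ≃ₗ[ℝ] (κ → ℝ))
    (a : κ → ℝ) {K : Set (ι → ℝ)} (hK : IsEllipsoid K) :
    IsEllipsoid ((fun x => T x + a) '' K) := by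
  obtain ⟨T₀, a₀, rfl⟩ := hK
  have e : κ ≃ ι := (Fintype.equivOfCardEq (card_eq_of_linearEquiv T)).symm
  refine ⟨(reidx e).trans (T₀.trans T), T a₀ + a, ?_⟩
  rw [Set.image_image, ← reidx_image_eball e, Set.image_image]
  refine Set.image_congr fun x _ => ?_
  show T (T₀ (reidx e x) + a₀) + a = T (T₀ (reidx e x)) + (T a₀ + a)
  rw [map_add, add_assoc]

lemma isEllipsoid_eball (ι : Type) [Fintype ι] : IsEllipsoid (eball ι) := by
  refine ⟨LinearEquiv.refl ℝ _, 0, ?_⟩
  simp

lemma pettyRatio_of_isEllipsoid {ι : Type} [Fintype ι] [Nonempty ι] {K : Set (ι → ℝ)}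
    (hK : IsEllipsoid K) : pettyRatio K = pettyConst (Fintype.card ι) := by
  obtain ⟨T, a, rfl⟩ := hK
  rw [pettyRatio_affine, pettyRatio_eball_general]

/-- The invariant carried along the inductive definition of the class. -/
lemma inClass_aux (ι : Type) [Fintype ι] (K : Set (ι → ℝ)) (h : InClass ι K) :
    Nonempty ι ∧ IsCompact K ∧ Convex ℝ K ∧ 0 < vol K ∧
    pettyConst (Fintype.card ι) ≤ pettyRatio K ∧
    (3 ≤ Fintype.card ι → pettyRatio K = pettyConst (Fintype.card ι) → IsEllipsoid K) := by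
  induction h with
  | planar M hc hv hi =>
    have h4 := four_le_pettyRatio_fin2 hc hv hi
    refine ⟨inferInstance, hc, hv, vol_pos_of_interior hc hi, ?_, ?_⟩
    · simp only [Fintype.card_fin]
      rw [pettyConst_two]
      exact h4
    · intro h3
      simp only [Fintype.card_fin] at h3
      omega
  | segment h hh =>
    have hR : pettyRatio (unitSeg h) = 2 := pettyRatio_unitSeg hh.le
    refine ⟨inferInstance, isCompact_unit_Icc 0 h, convex_unit_Icc 0 h, ?_, ?_, ?_⟩
    · rw [vol_unitSeg hh.le]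
      exact hh
    · simp only [Fintype.card_unit]
      rw [pettyConst_one, hR]
    · intro h3
      simp only [Fintype.card_unit] at h3
      omega
  | ball ι =>
    refine ⟨inferInstance, isCompact_eball, convex_eball, vol_eball_pos, ?_, ?_⟩
    · rw [pettyRatio_eball_general]
    · intro _ _
      exact isEllipsoid_eball ι
  | prod M N hM hN ihM ihN =>
    obtain ⟨neM, hMc, hMv, hMp, hM1, -⟩ := ihM
    obtain ⟨neN, hNc, hNv, hNp, hN1, -⟩ := ihN
    have hcl := closure_prod hMc hMv hMp hNc hNv hNp hM1 hN1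
    refine ⟨inferInstance, isCompact_prodSet hMc hNc, convex_prodSet hMv hNv, ?_, ?_, ?_⟩
    · rw [vol_prodSet]
      exact mul_pos hMp hNp
    · rw [Fintype.card_sum]
      exact hcl.1
    · intro h3 heq
      rw [Fintype.card_sum] at h3 heq
      exact absurd heq (ne_of_gt (hcl.2 h3))
  | affine T a K hK ih =>
    obtain ⟨ne, hKc, hKv, hKp, hK1, hK2⟩ := ih
    have hcard := card_eq_of_linearEquiv T
    refine ⟨ne.map (Fintype.equivOfCardEq hcard), isCompact_affine T a hKc, convex_affine T a hKv, vol_affine_pos T a hKp, ?_, ?_⟩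
    · rw [pettyRatio_affine, ← hcard]
      exact hK1
    · intro h3 heq
      rw [pettyRatio_affine, ← hcard] at heq
      rw [← hcard] at h3
      exact isEllipsoid_affine T a (hK2 h3 heq)

theorem result :
    -- the conjectured minimum is submultiplicative in the dimension
    (∀ a b : ℕ, 1 ≤ a → 1 ≤ b →
        pettyConst (a + b) ≤ pettyConst a * pettyConst b ∧
        (3 ≤ a + b → pettyConst (a + b) < pettyConst a * pettyConst b)) ∧
    -- `ballVol` is the volume of the Euclidean unit ball
    (ballVol 0 = 1 ∧ ∀ n : ℕ, ballVol (n + 1)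
        = (volume (Metric.ball (0 : EuclideanSpace ℝ (Fin (n + 1))) 1)).toReal) ∧
    -- ellipsoids belong to the class and have Petty ratio `c_n`
    (∀ (ι : Type) [Fintype ι] [Nonempty ι] (K : Set (ι → ℝ)), IsEllipsoid K →
        InClass ι K ∧ pettyRatio K = pettyConst (Fintype.card ι)) ∧
    -- Petty's inequality is preserved by Cartesian products, strictly from dimension three on
    (∀ (ι κ : Type) [Fintype ι] [Fintype κ] [Nonempty ι] [Nonempty κ]
        (M : Set (ι → ℝ)) (N : Set (κ → ℝ)),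
        IsCompact M → Convex ℝ M → (interior M).Nonempty →
        IsCompact N → Convex ℝ N → (interior N).Nonempty →
        pettyConst (Fintype.card ι) ≤ pettyRatio M →
        pettyConst (Fintype.card κ) ≤ pettyRatio N →
        pettyConst (Fintype.card ι + Fintype.card κ) ≤ pettyRatio (prodSet M N) ∧
        (3 ≤ Fintype.card ι + Fintype.card κ →
          pettyConst (Fintype.card ι + Fintype.card κ) < pettyRatio (prodSet M N))) ∧
    -- Petty's conjecture, with its equality case, on the class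
    (∀ (ι : Type) [Fintype ι] (K : Set (ι → ℝ)), InClass ι K →
        IsCompact K ∧ Convex ℝ K ∧ 0 < vol K ∧
        pettyConst (Fintype.card ι) ≤ pettyRatio K ∧
        (3 ≤ Fintype.card ι →
          (pettyRatio K = pettyConst (Fintype.card ι) ↔ IsEllipsoid K))) := by
  refine ⟨?_, ⟨ballVol_zero, ballVol_eq_volume⟩, ?_, ?_, ?_⟩
  · intro a b ha hb
    exact ⟨pettyConst_add_le ha hb, pettyConst_add_lt ha hb⟩
  · intro ι _ _ K hK
    refine ⟨?_, pettyRatio_of_isEllipsoid hK⟩
    obtain ⟨T, a, rfl⟩ := hK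
    exact InClass.affine T a _ (InClass.ball ι)
  · intro ι κ _ _ _ _ M N hMc hM hMi hNc hN hNi h1 h2
    exact closure_prod hMc hM (vol_pos_of_interior hMc hMi) hNc hN
      (vol_pos_of_interior hNc hNi) h1 h2
  · intro ι _ K hK
    obtain ⟨ne, hc, hv, hp, h1, h2⟩ := inClass_aux ι K hK
    exact ⟨hc, hv, hp, h1, fun h3 => ⟨h2 h3, fun hE => pettyRatio_of_isEllipsoid hE⟩⟩

end Vale.Agent.Results.P237.AffineProductClass
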