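import Vale.Agent.Results.P237.ProductFormula

/-!
P237 (Petty's projection-volume conjecture), plain form of two special cases: Petty's conjectured
inequality `|Π K| ≥ κ_{n-1}^n κ_n^{2-n} |K|^{n-1}` holds, strictly, for every cylinder over a
planar convex body (`n = 3`, constant `3 π^2 / 4`) and for every product of two planar convex
bodies (`n = 4`, constant `1024 / 81`).  All definitions are written out: `Π K` is the convex set
with support function `u ↦ |K + [0, u]| - |K|`.

Same mathematics as the hand-in `ProductFormula` (its last two parts).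
-/

namespace Vale.Agent.Results.P237.PlanarProductsPlain

open MeasureTheory Vale.Agent.Helper22

theorem result :
    (∀ (M : Set (Fin 2 → ℝ)) (h : ℝ),
      IsCompact M → Convex ℝ M → (interior M).Nonempty → 0 < h →
      ∀ K : Set (Fin 2 ⊕ Unit → ℝ),
        K = {f | (fun i => f (Sum.inl i)) ∈ M ∧ f (Sum.inr ()) ∈ Set.Icc (0:ℝ) h} →
      ∀ P : Set (Fin 2 ⊕ Unit → ℝ),
        P = {x | ∀ u : Fin 2 ⊕ Unit → ℝ, ∑ i, x i * u i ≤
          (volume {y | ∃ s ∈ Set.Icc (0:ℝ) 1, y - s • u ∈ K}).toReal - (volume K).toReal} →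
      3 * Real.pi ^ 2 / 4 * (volume K).toReal ^ 2 < (volume P).toReal) ∧
    (∀ (M N : Set (Fin 2 → ℝ)),
      IsCompact M → Convex ℝ M → (interior M).Nonempty →
      IsCompact N → Convex ℝ N → (interior N).Nonempty →
      ∀ K : Set (Fin 2 ⊕ Fin 2 → ℝ),
        K = {f | (fun i => f (Sum.inl i)) ∈ M ∧ (fun j => f (Sum.inr j)) ∈ N} →
      ∀ P : Set (Fin 2 ⊕ Fin 2 → ℝ),
        P = {x | ∀ u : Fin 2 ⊕ Fin 2 → ℝ, ∑ i, x i * u i ≤
          (volume {y | ∃ s ∈ Set.Icc (0:ℝ) 1, y - s • u ∈ K}).toReal - (volume K).toReal} →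
      (1024 : ℝ) / 81 * (volume K).toReal ^ 3 < (volume P).toReal) := by
  constructor
  · intro M h hMc hM hMi hh K hK P hP
    have h1 := Vale.Agent.Results.P237.ProductFormula.result.2.2.2.1 M h hMc hM hMi hh
    have hv : 0 < vol (prodSet M (unitSeg h)) := by
      rw [vol_prodSet, vol_unitSeg hh.le]
      exact mul_pos (vol_pos_of_interior hMc hMi) hh
    have hcard : Fintype.card (Fin 2 ⊕ Unit) - 1 = 2 := by simp
    unfold pettyRatio at h1
    rw [hcard, lt_div_iff₀ (pow_pos hv 2)] at h1
    subst hK hP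
    exact h1
  · intro M N hMc hM hMi hNc hN hNi K hK P hP
    have h1 := Vale.Agent.Results.P237.ProductFormula.result.2.2.2.2 M N hMc hM hMi hNc hN hNi
    have hv : 0 < vol (prodSet M N) := by
      rw [vol_prodSet]
      exact mul_pos (vol_pos_of_interior hMc hMi) (vol_pos_of_interior hNc hNi)
    have hcard : Fintype.card (Fin 2 ⊕ Fin 2) - 1 = 3 := by simp
    unfold pettyRatio at h1
    rw [hcard, lt_div_iff₀ (pow_pos hv 3)] at h1
    subst hK hP
    exact h1

end Vale.Agent.Results.P237.PlanarProductsPlain
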