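import Vale.Agent.Helper22.PettyPlanar
import Vale.Agent.Helper16.PettyConst

/-!
P237 (Petty's projection-volume conjecture).  Write `R_n(K) = |Π K| / |K|^(n-1)` for the Petty
ratio and `c_n = κ_{n-1}^n κ_n^{2-n}` for its value on ellipsoids, the conjectured minimum.

* `c_{a+b} ≤ c_a c_b` for all `a, b ≥ 1`, strictly when `a + b ≥ 3`.
* Hence the class of convex bodies satisfying Petty's inequality `R_n(K) ≥ c_n` is closed under
  Cartesian products in all dimensions, and a product body of dimension at least three is never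
  an equality case: if `R_a(M) ≥ c_a` and `R_b(N) ≥ c_b` then `R_{a+b}(M × N) ≥ c_{a+b}`, with
  strict inequality when `a + b ≥ 3`.
* Unconditionally, every iterated Cartesian product of planar convex bodies and segments, in
  every dimension `n`, satisfies `R_n(K) ≥ 2^n ≥ c_n`, strictly for `n ≥ 3`.

Here `Π K` is the convex set with support function `u ↦ |K + [0, u]| - |K|`.
-/

namespace Vale.Agent.Results.P237.ProductClosure

open MeasureTheory Vale.Agent.Helper22 Vale.Agent.Helper16.PettyConst

/-- The class of iterated Cartesian products of planar convex bodies and segments: the smallest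
class of pairs (finite index type `ι`, subset of `ι → ℝ`) that contains every planar convex body
(compact, convex, nonempty interior, index type `Fin 2`), every segment `[0, h]` with `h > 0`
(index type `Unit`), and with `M ⊆ ℝ^ι` and `N ⊆ ℝ^κ` their product `M × N ⊆ ℝ^(ι ⊕ κ)`. -/
inductive IsProductBody : (ι : Type) → [Fintype ι] → Set (ι → ℝ) → Prop
  | planar (M : Set (Fin 2 → ℝ)) (hc : IsCompact M) (hv : Convex ℝ M)
      (hi : (interior M).Nonempty) : IsProductBody (Fin 2) M
  | segment (h : ℝ) (hh : 0 < h) : IsProductBody Unit (unitSeg h)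
  | prod {ι κ : Type} [Fintype ι] [Fintype κ] (M : Set (ι → ℝ)) (N : Set (κ → ℝ))
      (hM : IsProductBody ι M) (hN : IsProductBody κ N) : IsProductBody (ι ⊕ κ) (prodSet M N)

lemma convex_prodSet {ι κ : Type} {M : Set (ι → ℝ)} {N : Set (κ → ℝ)}
    (hM : Convex ℝ M) (hN : Convex ℝ N) : Convex ℝ (prodSet M N) := by
  intro f hf g hg a b ha hb hab
  exact ⟨hM hf.1 hg.1 ha hb hab, hN hf.2 hg.2 ha hb hab⟩

/-- Closure of Petty's inequality under products. -/
lemma closure_prod {ι κ : Type} [Fintype ι] [Fintype κ] [Nonempty ι] [Nonempty κ]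
    {M : Set (ι → ℝ)} {N : Set (κ → ℝ)}
    (hMc : IsCompact M) (hM : Convex ℝ M) (hvM : 0 < vol M)
    (hNc : IsCompact N) (hN : Convex ℝ N) (hvN : 0 < vol N)
    (h1 : pettyConst (Fintype.card ι) ≤ pettyRatio M)
    (h2 : pettyConst (Fintype.card κ) ≤ pettyRatio N) :
    pettyConst (Fintype.card ι + Fintype.card κ) ≤ pettyRatio (prodSet M N) ∧
    (3 ≤ Fintype.card ι + Fintype.card κ →
      pettyConst (Fintype.card ι + Fintype.card κ) < pettyRatio (prodSet M N)) := by
  have ha : 1 ≤ Fintype.card ι := Fintype.card_pos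
  have hb : 1 ≤ Fintype.card κ := Fintype.card_pos
  obtain ⟨a', ha'⟩ : ∃ a', Fintype.card ι = a' + 1 := ⟨Fintype.card ι - 1, by omega⟩
  obtain ⟨b', hb'⟩ : ∃ b', Fintype.card κ = b' + 1 := ⟨Fintype.card κ - 1, by omega⟩
  have pa : 0 < pettyConst (Fintype.card ι) := by rw [ha']; exact pettyConst_pos a'
  have pb : 0 < pettyConst (Fintype.card κ) := by rw [hb']; exact pettyConst_pos b'
  have hmul : pettyConst (Fintype.card ι) * pettyConst (Fintype.card κ)
      ≤ pettyRatio M * pettyRatio N :=
    mul_le_mul h1 h2 pb.le (pa.le.trans h1)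
  rw [pettyRatio_prodSet hMc hM hNc hN hvM hvN]
  exact ⟨(pettyConst_add_le ha hb).trans hmul,
    fun h3 => lt_of_lt_of_le (pettyConst_add_lt ha hb h3) hmul⟩

/-- The invariant carried along the inductive definition of product bodies. -/
lemma productBody_aux (ι : Type) [Fintype ι] (K : Set (ι → ℝ)) (h : IsProductBody ι K) :
    Nonempty ι ∧ IsCompact K ∧ Convex ℝ K ∧ 0 < vol K ∧
    pettyConst (Fintype.card ι) ≤ pettyRatio K ∧ (2:ℝ) ^ Fintype.card ι ≤ pettyRatio K ∧
    (3 ≤ Fintype.card ι → pettyConst (Fintype.card ι) < pettyRatio K) := by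
  induction h with
  | planar M hc hv hi =>
    have h4 := four_le_pettyRatio_fin2 hc hv hi
    refine ⟨inferInstance, hc, hv, vol_pos_of_interior hc hi, ?_, ?_, ?_⟩
    · simp only [Fintype.card_fin]
      rw [pettyConst_two]
      exact h4
    · simp only [Fintype.card_fin]
      norm_num
      exact h4
    · intro h3
      simp only [Fintype.card_fin] at h3
      omega
  | segment h hh =>
    have hR : pettyRatio (unitSeg h) = 2 := pettyRatio_unitSeg hh.le
    refine ⟨inferInstance, isCompact_unit_Icc 0 h, convex_unit_Icc 0 h, ?_, ?_, ?_, ?_⟩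
    · rw [vol_unitSeg hh.le]
      exact hh
    · simp only [Fintype.card_unit]
      rw [pettyConst_one, hR]
    · simp only [Fintype.card_unit]
      rw [hR]
      norm_num
    · intro h3
      simp only [Fintype.card_unit] at h3
      omega
  | prod M N hM hN ihM ihN =>
    obtain ⟨neM, hMc, hMv, hMp, hM1, hM2, -⟩ := ihM
    obtain ⟨neN, hNc, hNv, hNp, hN1, hN2, -⟩ := ihN
    have hcl := closure_prod hMc hMv hMp hNc hNv hNp hM1 hN1
    have hprod := pettyRatio_prodSet hMc hMv hNc hNv hMp hNp
    refine ⟨inferInstance, isCompact_prodSet hMc hNc, convex_prodSet hMv hNv, ?_, ?_, ?_, ?_⟩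
    · rw [vol_prodSet]
      exact mul_pos hMp hNp
    · rw [Fintype.card_sum]
      exact hcl.1
    · rw [Fintype.card_sum, pow_add, hprod]
      exact mul_le_mul hM2 hN2 (by positivity) ((by positivity : (0:ℝ) ≤ 2 ^ _).trans hM2)
    · rw [Fintype.card_sum]
      exact hcl.2

theorem result :
    -- the conjectured minimum is submultiplicative in the dimension
    (∀ a b : ℕ, 1 ≤ a → 1 ≤ b →
        pettyConst (a + b) ≤ pettyConst a * pettyConst b ∧
        (3 ≤ a + b → pettyConst (a + b) < pettyConst a * pettyConst b)) ∧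
    -- `ballVol` is the volume of the Euclidean unit ball, and the first two constants
    (ballVol 0 = 1 ∧ ∀ n : ℕ, ballVol (n + 1)
        = (volume (Metric.ball (0 : EuclideanSpace ℝ (Fin (n + 1))) 1)).toReal) ∧
    (pettyConst 1 = 2 ∧ pettyConst 2 = 4) ∧
    -- Petty's inequality is preserved by Cartesian products, strictly from dimension three on
    (∀ (ι κ : Type) [Fintype ι] [Fintype κ] [Nonempty ι] [Nonempty κ]
        (M : Set (ι → ℝ)) (N : Set (κ → ℝ)),
        IsCompact M → Convex ℝ M → (interior M).Nonempty →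
        IsCompact N → Convex ℝ N → (interior N).Nonempty →
        pettyConst (Fintype.card ι) ≤ pettyRatio M →
        pettyConst (Fintype.card κ) ≤ pettyRatio N →
        pettyConst (Fintype.card ι + Fintype.card κ) ≤ pettyRatio (prodSet M N) ∧
        (3 ≤ Fintype.card ι + Fintype.card κ →
          pettyConst (Fintype.card ι + Fintype.card κ) < pettyRatio (prodSet M N))) ∧
    -- Petty's inequality for all iterated products of planar convex bodies and segments
    (∀ (ι : Type) [Fintype ι] (K : Set (ι → ℝ)), IsProductBody ι K →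
        IsCompact K ∧ Convex ℝ K ∧ 0 < vol K ∧
        pettyConst (Fintype.card ι) ≤ pettyRatio K ∧
        (2:ℝ) ^ Fintype.card ι ≤ pettyRatio K ∧
        (3 ≤ Fintype.card ι → pettyConst (Fintype.card ι) < pettyRatio K)) := by
  refine ⟨?_, ⟨ballVol_zero, ballVol_eq_volume⟩, ⟨pettyConst_one, pettyConst_two⟩, ?_, ?_⟩
  · intro a b ha hb
    exact ⟨pettyConst_add_le ha hb, pettyConst_add_lt ha hb⟩
  · intro ι κ _ _ _ _ M N hMc hM hMi hNc hN hNi h1 h2
    exact closure_prod hMc hM (vol_pos_of_interior hMc hMi) hNc hN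
      (vol_pos_of_interior hNc hNi) h1 h2
  · intro ι _ K hK
    exact (productBody_aux ι K hK).2

end Vale.Agent.Results.P237.ProductClosure
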