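import Vale.Agent.Helper22.PettyPlanar

/-!
P237 (Petty's projection-volume conjecture): the Petty ratio `R_n(K) = |Π K| / |K|^(n-1)` is
multiplicative on Cartesian products of convex bodies, `R_{a+b}(M × N) = R_a(M) R_b(N)`, with
`Π (M × N) = (|N| Π M) × (|M| Π N)`; a cylinder has `R_{n+1}(M × [0, h]) = 2 R_n(M)`; planar
convex bodies have `R_2 ≥ 4`.  Hence Petty's conjectured inequality holds, strictly, for every
cylinder over a planar convex body in dimension 3 and for every product of two planar convex
bodies in dimension 4.  Here `Π K` is the convex set with support function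
`u ↦ |K + [0, u]| - |K|`.
-/

namespace Vale.Agent.Results.P237.ProductFormula

open MeasureTheory Vale.Agent.Helper22
open scoped Pointwise

theorem result :
    (∀ (ι κ : Type) [Fintype ι] [Fintype κ] [Nonempty ι] [Nonempty κ]
        (M : Set (ι → ℝ)) (N : Set (κ → ℝ)),
        IsCompact M → Convex ℝ M → (interior M).Nonempty →
        IsCompact N → Convex ℝ N → (interior N).Nonempty →
        (∀ w : ι ⊕ κ → ℝ, shadow (prodSet M N) w
            = vol N * shadow M (fun i => w (Sum.inl i))
              + vol M * shadow N (fun j => w (Sum.inr j))) ∧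
        projBody (prodSet M N) = prodSet (vol N • projBody M) (vol M • projBody N) ∧
        pettyRatio (prodSet M N) = pettyRatio M * pettyRatio N) ∧
    (∀ (ι : Type) [Fintype ι] [Nonempty ι] (M : Set (ι → ℝ)) (h : ℝ),
        IsCompact M → Convex ℝ M → (interior M).Nonempty → 0 < h →
        pettyRatio (prodSet M (unitSeg h)) = 2 * pettyRatio M) ∧
    (∀ (M : Set (Fin 2 → ℝ)),
        IsCompact M → Convex ℝ M → (interior M).Nonempty → 4 ≤ pettyRatio M) ∧
    (∀ (M : Set (Fin 2 → ℝ)) (h : ℝ),
        IsCompact M → Convex ℝ M → (interior M).Nonempty → 0 < h →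
        3 * Real.pi ^ 2 / 4 < pettyRatio (prodSet M (unitSeg h))) ∧
    (∀ (M N : Set (Fin 2 → ℝ)),
        IsCompact M → Convex ℝ M → (interior M).Nonempty →
        IsCompact N → Convex ℝ N → (interior N).Nonempty →
        (1024 : ℝ) / 81 < pettyRatio (prodSet M N)) := by
  have hcyl : ∀ (ι : Type) [Fintype ι] [Nonempty ι] (M : Set (ι → ℝ)) (h : ℝ),
      IsCompact M → Convex ℝ M → (interior M).Nonempty → 0 < h →
      pettyRatio (prodSet M (unitSeg h)) = 2 * pettyRatio M := by
    intro ι _ _ M h hMc hM hMi hh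
    have hv : 0 < vol (unitSeg h) := by rw [vol_unitSeg hh.le]; exact hh
    have hc : IsCompact (unitSeg h) := isCompact_unit_Icc 0 h
    have hcv : Convex ℝ (unitSeg h) := convex_unit_Icc 0 h
    rw [pettyRatio_prodSet hMc hM hc hcv (vol_pos_of_interior hMc hMi) hv,
      pettyRatio_unitSeg hh.le]
    ring
  refine ⟨?_, hcyl, ?_, ?_, ?_⟩
  · intro ι κ _ _ _ _ M N hMc hM hMi hNc hN hNi
    exact ⟨shadow_prodSet hMc hM hNc hN,
      projBody_prodSet hMc hM hNc hN (vol_pos_of_interior hMc hMi) (vol_pos_of_interior hNc hNi),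
      pettyRatio_prodSet hMc hM hNc hN (vol_pos_of_interior hMc hMi)
        (vol_pos_of_interior hNc hNi)⟩
  · intro M hMc hM hMi
    exact four_le_pettyRatio_fin2 hMc hM hMi
  · intro M h hMc hM hMi hh
    have h4 := four_le_pettyRatio_fin2 hMc hM hMi
    rw [hcyl _ M h hMc hM hMi hh]
    have hpi : Real.pi < 3.15 := Real.pi_lt_d2
    have hpi0 : 0 < Real.pi := Real.pi_pos
    nlinarith
  · intro M N hMc hM hMi hNc hN hNi
    have h4 := four_le_pettyRatio_fin2 hMc hM hMi
    have h4' := four_le_pettyRatio_fin2 hNc hN hNi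
    rw [pettyRatio_prodSet hMc hM hNc hN (vol_pos_of_interior hMc hMi)
      (vol_pos_of_interior hNc hNi)]
    nlinarith

end Vale.Agent.Results.P237.ProductFormula
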